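import Mathlib

/-! Numbers for the asymptotic form of the LK theorem. -/

namespace Vale.Agent.P181.H318

open Filter Topology

/-- `log a` to a power is small against a power of `a` -/
theorem logpow_small (C : ℝ) (m : ℕ) {ε : ℝ} (hε : 0 < ε) :
    ∀ᶠ a : ℕ in atTop, C * (Real.log a) ^ m ≤ (a : ℝ) ^ ε := by
  have h1 : (fun x : ℝ => (Real.log x) ^ m) =o[atTop] fun x : ℝ => x ^ ε := by
    have := isLittleO_log_rpow_rpow_atTop (m : ℝ) hε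
    simpa [Real.rpow_natCast] using this
  have h2 : (fun x : ℝ => C * (Real.log x) ^ m) =o[atTop] fun x : ℝ => x ^ ε :=
    h1.const_mul_left C
  have h3 := h2.def (zero_lt_one)
  have h4 := tendsto_natCast_atTop_atTop (R := ℝ) |>.eventually h3
  filter_upwards [h4, eventually_ge_atTop 1] with a ha _
  rw [one_mul, Real.norm_eq_abs, Real.norm_eq_abs,
    abs_of_nonneg (Real.rpow_nonneg (Nat.cast_nonneg a) ε)] at ha
  exact (le_abs_self _).trans ha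

theorem log_large (C : ℝ) : ∀ᶠ a : ℕ in atTop, C ≤ Real.log a :=
  (Real.tendsto_log_atTop.comp (tendsto_natCast_atTop_atTop (R := ℝ))).eventually_ge_atTop C

theorem num8 : ∀ᶠ a : ℕ in atTop, ∀ b : ℕ, (10 : ℝ) ^ 8 * (a : ℝ) * (Real.log a) ^ 2 ≤ b →
    (b : ℝ) ≤ (a : ℝ) ^ ((8 : ℝ) / 7) → ∃ s : ℕ, 1 ≤ s ∧ 43680 * (s + 1) ^ 2 ≤ b / a ∧
      (10 : ℝ) ^ 6 * (s : ℝ) ^ 13 * ((b / a : ℕ) : ℝ) ^ 6 * Real.log a ≤ a ∧
      a * (a * b + 17) ≤ 2 ^ (s / 4) := by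
  filter_upwards [logpow_small ((10 : ℝ) ^ 6 * 21 ^ 13) 14 (ε := 1 / 7) (by norm_num),
    log_large 100, eventually_ge_atTop 2] with a h1 h2 h3 b hb1 hb2
  have ha1 : (1 : ℝ) ≤ a := by exact_mod_cast (by omega : 1 ≤ a)
  have ha0 : (0 : ℝ) < a := by linarith
  set L : ℝ := Real.log a with hL
  have hL0 : 0 < L := by linarith
  obtain ⟨s, hs⟩ : ∃ s : ℕ, s = ⌈20 * L⌉₊ := ⟨_, rfl⟩
  have hs1 : 20 * L ≤ s := by rw [hs]; exact Nat.le_ceil _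
  have hs2 : (s : ℝ) < 20 * L + 1 := by rw [hs]; exact Nat.ceil_lt_add_one (by positivity)
  have hs0 : 1 ≤ s := by
    have : (1 : ℝ) ≤ s := by linarith
    exact_mod_cast this
  have hs3 : (s : ℝ) ≤ 21 * L := by linarith
  -- the quotient
  have hq1 : (((b / a : ℕ)) : ℝ) ≤ (b : ℝ) / a := Nat.cast_div_le
  have hq2 : (b : ℝ) / a < ((b / a : ℕ) : ℝ) + 1 := by
    rw [div_lt_iff₀ ha0]
    have := Nat.lt_div_mul_add (a := b) (b := a) (by omega)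
    have h : b < (b / a + 1) * a := by
      rw [Nat.add_mul, one_mul]
      exact this
    exact_mod_cast h
  have hq3 : (b : ℝ) / a ≤ (a : ℝ) ^ ((1 : ℝ) / 7) := by
    rw [div_le_iff₀ ha0]
    refine hb2.trans (le_of_eq ?_)
    have : (a : ℝ) ^ ((1 : ℝ) / 7) * (a : ℝ) = (a : ℝ) ^ ((1 : ℝ) / 7) * (a : ℝ) ^ (1 : ℝ) := by
      rw [Real.rpow_one]
    rw [this, ← Real.rpow_add ha0]
    norm_num
  refine ⟨s, hs0, ?_, ?_, ?_⟩
  · have e1 : (10 : ℝ) ^ 8 * L ^ 2 ≤ (b : ℝ) / a := by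
      rw [le_div_iff₀ ha0]
      have e0 : (10 : ℝ) ^ 8 * L ^ 2 * a = (10 : ℝ) ^ 8 * a * L ^ 2 := by ring
      rw [e0]
      exact hb1
    have e2 : (43680 : ℝ) * ((s : ℝ) + 1) ^ 2 ≤ ((b / a : ℕ) : ℝ) := by
      have f1 : (s : ℝ) + 1 ≤ 21 * L := by linarith
      have f2 : ((s : ℝ) + 1) ^ 2 ≤ (21 * L) ^ 2 := pow_le_pow_left₀ (by positivity) f1 2
      have f3 : (43680 : ℝ) * (21 * L) ^ 2 + 1 ≤ (10 : ℝ) ^ 8 * L ^ 2 := by nlinarith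
      linarith
    exact_mod_cast e2
  · have e1 : (((b / a : ℕ)) : ℝ) ≤ (a : ℝ) ^ ((1 : ℝ) / 7) := hq1.trans hq3
    have e2 : (((b / a : ℕ)) : ℝ) ^ 6 ≤ (a : ℝ) ^ ((6 : ℝ) / 7) := by
      have f1 : (((b / a : ℕ)) : ℝ) ^ 6 ≤ ((a : ℝ) ^ ((1 : ℝ) / 7)) ^ 6 :=
        pow_le_pow_left₀ (Nat.cast_nonneg _) e1 6
      refine f1.trans (le_of_eq ?_)
      rw [← Real.rpow_natCast, ← Real.rpow_mul ha0.le]
      norm_num
    have e3 : (s : ℝ) ^ 13 ≤ (21 * L) ^ 13 := pow_le_pow_left₀ (Nat.cast_nonneg _) hs3 13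
    have e4 : (a : ℝ) ^ ((1 : ℝ) / 7) * (a : ℝ) ^ ((6 : ℝ) / 7) = a := by
      rw [← Real.rpow_add ha0]
      norm_num
    calc (10 : ℝ) ^ 6 * (s : ℝ) ^ 13 * ((b / a : ℕ) : ℝ) ^ 6 * L
        ≤ (10 : ℝ) ^ 6 * (21 * L) ^ 13 * (a : ℝ) ^ ((6 : ℝ) / 7) * L := by gcongr
      _ = ((10 : ℝ) ^ 6 * 21 ^ 13 * L ^ 14) * (a : ℝ) ^ ((6 : ℝ) / 7) := by ring
      _ ≤ (a : ℝ) ^ ((1 : ℝ) / 7) * (a : ℝ) ^ ((6 : ℝ) / 7) :=
          mul_le_mul_of_nonneg_right h1 (by positivity)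
      _ = a := e4
  · -- the power of two
    have g1 : (5 * L - 1 : ℝ) ≤ ((s / 4 : ℕ) : ℝ) := by
      have : s < (s / 4 + 1) * 4 := by omega
      have h : (s : ℝ) < (((s / 4 : ℕ) : ℝ) + 1) * 4 := by exact_mod_cast this
      linarith
    have hlog2 := Real.log_two_gt_d9
    have g2 : (a : ℝ) ^ ((10 : ℝ) / 3) ≤ (2 : ℝ) ^ (s / 4) := by
      have f1 : (2 : ℝ) ^ (s / 4) = Real.exp (Real.log 2 * ((s / 4 : ℕ) : ℝ)) := by
        rw [← Real.rpow_natCast, Real.rpow_def_of_pos (by norm_num : (0 : ℝ) < 2)]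
      rw [f1, Real.rpow_def_of_pos ha0]
      refine Real.exp_le_exp.2 ?_
      have f2 : Real.log 2 * (5 * L - 1) ≤ Real.log 2 * ((s / 4 : ℕ) : ℝ) :=
        mul_le_mul_of_nonneg_left g1 (by linarith)
      have f3 : (0.69 : ℝ) * (5 * L - 1) ≤ Real.log 2 * (5 * L - 1) :=
        mul_le_mul_of_nonneg_right (by linarith) (by linarith)
      have f4 : Real.log (a : ℝ) * ((10 : ℝ) / 3) ≤ (0.69 : ℝ) * (5 * L - 1) := by
        rw [← hL]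
        linarith
      exact f4.trans (f3.trans f2)
    have g3 : ((a * (a * b + 17) : ℕ) : ℝ) ≤ (a : ℝ) ^ ((10 : ℝ) / 3) := by
      push_cast
      have f1 : (1 : ℝ) ≤ (a : ℝ) ^ ((8 : ℝ) / 7) := Real.one_le_rpow ha1 (by norm_num)
      have f2 : (a : ℝ) * ((a : ℝ) * b + 17) ≤ 18 * ((a : ℝ) ^ 2 * (a : ℝ) ^ ((8 : ℝ) / 7)) := by
        have k1 : (a : ℝ) * b ≤ a * (a : ℝ) ^ ((8 : ℝ) / 7) :=
          mul_le_mul_of_nonneg_left hb2 ha0.le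
        have k2 : (17 : ℝ) ≤ 17 * (a * (a : ℝ) ^ ((8 : ℝ) / 7)) := by nlinarith
        have k3 : (a : ℝ) * b + 17 ≤ 18 * (a * (a : ℝ) ^ ((8 : ℝ) / 7)) := by linarith
        calc (a : ℝ) * ((a : ℝ) * b + 17) ≤ a * (18 * (a * (a : ℝ) ^ ((8 : ℝ) / 7))) :=
              mul_le_mul_of_nonneg_left k3 ha0.le
          _ = 18 * ((a : ℝ) ^ 2 * (a : ℝ) ^ ((8 : ℝ) / 7)) := by ring
      have f3 : (a : ℝ) ^ 2 * (a : ℝ) ^ ((8 : ℝ) / 7) = (a : ℝ) ^ ((22 : ℝ) / 7) := by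
        rw [← Real.rpow_natCast, ← Real.rpow_add ha0]
        norm_num
      have f4 : (18 : ℝ) ≤ (a : ℝ) ^ ((4 : ℝ) / 21) := by
        rw [Real.rpow_def_of_pos ha0, ← hL]
        have k1 : (18 : ℝ) ≤ L * ((4 : ℝ) / 21) + 1 := by linarith
        exact k1.trans (Real.add_one_le_exp _)
      have f5 : (a : ℝ) ^ ((4 : ℝ) / 21) * (a : ℝ) ^ ((22 : ℝ) / 7) = (a : ℝ) ^ ((10 : ℝ) / 3) := by
        rw [← Real.rpow_add ha0]
        norm_num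
      rw [f3] at f2
      refine f2.trans ?_
      rw [← f5]
      exact mul_le_mul_of_nonneg_right f4 (by positivity)
    have g4 : ((a * (a * b + 17) : ℕ) : ℝ) ≤ ((2 ^ (s / 4) : ℕ) : ℝ) := by
      refine g3.trans (g2.trans (le_of_eq ?_))
      push_cast
      rfl
    exact_mod_cast g4

end Vale.Agent.P181.H318
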