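import Vale.Agent.P181.H303.Spec

/-!
P181, row BN (second copy): Bernstein at a maximum, without stationarity.
-/

set_option autoImplicit false

namespace Vale.Agent.P181.H318

open Finset H303

theorem lin_pow_eq {n : ℕ} (b : ℕ) (u : EE (n + 1)) :
    lin u ^ b = ∑ f : Fin b → Fin (n + 1), (∏ k, u (f k)) •
      (∏ k, (MvPolynomial.X (f k) : MvPolynomial (Fin (n + 1)) ℂ)) := by
  have h1 : lin u ^ b = ∏ _k : Fin b, ∑ j : Fin (n + 1),
      u j • (MvPolynomial.X j : MvPolynomial (Fin (n + 1)) ℂ) := by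
    simp [lin]
  rw [h1, Finset.prod_univ_sum, Fintype.piFinset_univ]
  refine Finset.sum_congr rfl fun f _ => ?_
  rw [Finset.prod_smul]

theorem F_expand {a b n : ℕ}
    (F : MultilinearMap ℂ (fun _ : Fin a => MvPolynomial (Fin (n + 1)) ℂ) ℂ)
    (u : Fin a → EE (n + 1)) :
    F (fun i => lin (u i) ^ b) = ∑ φ : Fin a → Fin b → Fin (n + 1),
      (∏ i, ∏ k, u i (φ i k)) * F (fun i => ∏ k, MvPolynomial.X (φ i k)) := by
  have h1 : (fun i => lin (u i) ^ b) = fun i => ∑ f : Fin b → Fin (n + 1),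
      (∏ k, u i (f k)) • (∏ k, (MvPolynomial.X (f k) : MvPolynomial (Fin (n + 1)) ℂ)) := by
    funext i
    exact lin_pow_eq b (u i)
  rw [h1, MultilinearMap.map_sum]
  refine Finset.sum_congr rfl fun φ _ => ?_
  rw [MultilinearMap.map_smul_univ, smul_eq_mul]

theorem F_cont {a b n : ℕ}
    (F : MultilinearMap ℂ (fun _ : Fin a => MvPolynomial (Fin (n + 1)) ℂ) ℂ) :
    Continuous fun u : Fin a → EE (n + 1) => F (fun i => lin (u i) ^ b) := by
  have h : (fun u : Fin a → EE (n + 1) => F (fun i => lin (u i) ^ b)) = fun u =>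
      ∑ φ : Fin a → Fin b → Fin (n + 1),
      (∏ i, ∏ k, u i (φ i k)) * F (fun i => ∏ k, MvPolynomial.X (φ i k)) := by
    funext u
    exact F_expand F u
  rw [h]
  refine continuous_finsetSum _ fun φ _ => Continuous.mul ?_ continuous_const
  refine continuous_finsetProd _ fun i _ => continuous_finsetProd _ fun k _ => ?_
  fun_prop

theorem lin_smul {n : ℕ} (c : ℂ) (u : EE n) : lin (c • u) = c • lin u := by
  simp [lin, Finset.smul_sum, mul_smul]

theorem F_smul {a b n : ℕ}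
    (F : MultilinearMap ℂ (fun _ : Fin a => MvPolynomial (Fin (n + 1)) ℂ) ℂ)
    (c : Fin a → ℂ) (u : Fin a → EE (n + 1)) :
    F (fun i => lin (c i • u i) ^ b) = (∏ i, c i ^ b) * F (fun i => lin (u i) ^ b) := by
  have : (fun i => lin (c i • u i) ^ b) = fun i => (c i ^ b) • lin (u i) ^ b := by
    funext i
    rw [lin_smul, smul_pow]
  rw [this, MultilinearMap.map_smul_univ, smul_eq_mul]

theorem norm_refl {n : ℕ} (e x : EE n) (he : ‖e‖ = 1) (hx : ‖x‖ = 1) (z : ℂ) :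
    ‖x + ((z - 1) * inner ℂ e x) • e‖ ^ 2 = 1 + ‖inner ℂ e x‖ ^ 2 * (‖z‖ ^ 2 - 1) := by
  set c : ℂ := inner ℂ e x with hc
  have h1 : inner ℂ x e = (starRingEnd ℂ) c := by rw [hc, inner_conj_symm]
  have h2 : ‖x + ((z - 1) * c) • e‖ ^ 2 =
      ‖x‖ ^ 2 + 2 * RCLike.re (inner ℂ x (((z - 1) * c) • e)) + ‖((z - 1) * c) • e‖ ^ 2 :=
    norm_add_sq x _
  rw [h2, inner_smul_right, h1, norm_smul, he, hx]
  have h3 : (z - 1) * c * (starRingEnd ℂ) c = (z - 1) * ((‖c‖ ^ 2 : ℝ) : ℂ) := by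
    rw [mul_assoc, Complex.mul_conj, Complex.normSq_eq_norm_sq]
  rw [h3]
  have h4 : RCLike.re ((z - 1) * ((‖c‖ ^ 2 : ℝ) : ℂ)) = (z.re - 1) * ‖c‖ ^ 2 := by
    simp only [RCLike.re_eq_complex_re]
    rw [Complex.re_mul_ofReal]
    simp
  rw [h4, norm_mul]
  have h5 : ‖z - 1‖ ^ 2 = ‖z‖ ^ 2 - 2 * z.re + 1 := by
    rw [← Complex.normSq_eq_norm_sq, ← Complex.normSq_eq_norm_sq, Complex.normSq_apply,
      Complex.normSq_apply]
    simp
    ring
  have : (‖z - 1‖ * ‖c‖ * 1) ^ 2 = ‖z - 1‖ ^ 2 * ‖c‖ ^ 2 := by ring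
  rw [this, h5]
  ring

/-- Growth outside the disc. -/
theorem growth (p : Polynomial ℂ) (N : ℕ) (hp : p.natDegree ≤ N) (μ : ℝ)
    (h : ∀ z : ℂ, ‖z‖ = 1 → ‖p.eval z‖ ≤ μ) (r : ℝ) (hr : 1 ≤ r) :
    ‖p.eval (r : ℂ)‖ ≤ μ * r ^ N := by
  have hr0 : (0 : ℝ) < r := by linarith
  have key : ∀ x : ℂ, x ≠ 0 → (p.reflect N).eval x⁻¹ * x ^ N = p.eval x := by
    intro x hx
    have := invertibleOfNonzero hx
    have h0 := Polynomial.eval₂_reflect_mul_pow (RingHom.id ℂ) x N p hp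
    rw [invOf_eq_inv] at h0
    exact h0
  have hb : ∀ w : ℂ, ‖w‖ ≤ 1 → ‖(p.reflect N).eval w‖ ≤ μ := by
    intro w hw
    refine Complex.norm_le_of_forall_mem_frontier_norm_le (U := Metric.ball 0 1)
      Metric.isBounded_ball ((p.reflect N).differentiable.diffContOnCl) ?_ ?_
    · intro z hz
      rw [frontier_ball (0 : ℂ) one_ne_zero, mem_sphere_zero_iff_norm] at hz
      have hz0 : z ≠ 0 := by
        intro h0
        simp [h0] at hz
      have h1 := key z⁻¹ (inv_ne_zero hz0)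
      rw [inv_inv] at h1
      have h2 := h z⁻¹ (by rw [norm_inv, hz, inv_one])
      rw [← h1, norm_mul, norm_pow, norm_inv, hz] at h2
      simpa using h2
    · rw [closure_ball (0 : ℂ) one_ne_zero]
      simpa using hw
  have h1 := key (r : ℂ) (by exact_mod_cast hr0.ne')
  rw [← h1, norm_mul, norm_pow, Complex.norm_real, Real.norm_eq_abs, abs_of_pos hr0]
  refine mul_le_mul_of_nonneg_right (hb _ ?_) (by positivity)
  rw [norm_inv, Complex.norm_real, Real.norm_eq_abs, abs_of_pos hr0]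
  exact inv_le_one_of_one_le₀ hr

theorem right_deriv {h : ℝ → ℝ} {d : ℝ} (hd : HasDerivAt h d 1) (h1 : h 1 = 0)
    (hr : ∀ r, 1 ≤ r → 0 ≤ h r) : 0 ≤ d := by
  have ht := hd.tendsto_slope_zero_right
  refine ge_of_tendsto ht ?_
  filter_upwards [self_mem_nhdsWithin] with t ht
  have ht' : (0 : ℝ) < t := ht
  rw [h1, sub_zero, smul_eq_mul]
  exact mul_nonneg (inv_nonneg.2 ht'.le) (hr _ (by linarith))

/-- The main comparison. -/
theorem main_cmp {ι : Type*} [Fintype ι] [DecidableEq ι] (b N : ℕ) (p : Polynomial ℂ) (μ : ℝ) (hμ : 0 < μ)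
    (k : ι → ℝ) (h1 : ‖p.eval 1‖ = μ) (hN : ∀ r : ℝ, 1 ≤ r → ‖p.eval (r : ℂ)‖ ≤ μ * r ^ N)
    (hk : ∀ r : ℝ, 0 < r → ‖p.eval (r : ℂ)‖ ^ 2 ≤ μ ^ 2 * ∏ i, (1 + k i * (r ^ 2 - 1)) ^ b) :
    (b : ℝ) * ∑ i, k i ≤ N := by
  have hfd : DifferentiableAt ℝ (fun r : ℝ => ‖p.eval (r : ℂ)‖ ^ 2) 1 := by
    have h0 : HasDerivAt (fun r : ℝ => p.eval (r : ℂ)) (p.derivative.eval ((1 : ℝ) : ℂ)) 1 :=
      (p.hasDerivAt ((1 : ℝ) : ℂ)).comp_ofReal
    exact h0.differentiableAt.norm_sq ℝ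
  set D := deriv (fun r : ℝ => ‖p.eval (r : ℂ)‖ ^ 2) 1 with hD
  have hf : HasDerivAt (fun r : ℝ => ‖p.eval (r : ℂ)‖ ^ 2) D 1 := hfd.hasDerivAt
  have hg : HasDerivAt (fun r : ℝ => μ ^ 2 * ∏ i, (1 + k i * (r ^ 2 - 1)) ^ b)
      (μ ^ 2 * ∑ i, (b * (2 * k i))) 1 := by
    refine HasDerivAt.const_mul _ ?_
    have hi : ∀ i ∈ (univ : Finset ι), HasDerivAt (fun r : ℝ => (1 + k i * (r ^ 2 - 1)) ^ b)
        (b * (2 * k i)) 1 := by
      intro i _
      have h2 : HasDerivAt (fun r : ℝ => 1 + k i * (r ^ 2 - 1)) (k i * 2) 1 := by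
        have := (((hasDerivAt_pow 2 (1 : ℝ)).sub_const 1).const_mul (k i)).const_add 1
        simpa using this
      have h3 := h2.fun_pow b
      refine h3.congr_deriv ?_
      simp only [one_pow, sub_self, mul_zero, add_zero, mul_one]
      ring
    have h4 := HasDerivAt.fun_finsetProd hi
    refine h4.congr_deriv ?_
    simp only [one_pow, sub_self, mul_zero, add_zero, Finset.prod_const_one, one_smul]
  have hz : μ ^ 2 * ∑ i, (b * (2 * k i)) - D = 0 := by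
    refine IsLocalMin.hasDerivAt_eq_zero (f := fun r : ℝ =>
      μ ^ 2 * ∏ i, (1 + k i * (r ^ 2 - 1)) ^ b - ‖p.eval (r : ℂ)‖ ^ 2) (a := 1) ?_ (hg.sub hf)
    have hpos : ∀ᶠ r : ℝ in nhds 1, 0 < r := lt_mem_nhds one_pos
    filter_upwards [hpos] with r hr
    have := hk r hr
    have e1 : μ ^ 2 * ∏ i, (1 + k i * ((1 : ℝ) ^ 2 - 1)) ^ b - ‖p.eval ((1 : ℝ) : ℂ)‖ ^ 2 = 0 := by
      simp [h1]
    rw [e1]
    linarith
  have hN' : 0 ≤ μ ^ 2 * (2 * N) - D := by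
    refine right_deriv (h := fun r : ℝ => μ ^ 2 * r ^ (2 * N) - ‖p.eval (r : ℂ)‖ ^ 2) ?_ ?_ ?_
    · refine HasDerivAt.sub ?_ hf
      have := (hasDerivAt_pow (2 * N) (1 : ℝ)).const_mul (μ ^ 2)
      simpa using this
    · simp [h1]
    · intro r hr
      have h2 := hN r hr
      have h3 : ‖p.eval (r : ℂ)‖ ^ 2 ≤ (μ * r ^ N) ^ 2 :=
        pow_le_pow_left₀ (norm_nonneg _) h2 2
      have h4 : (μ * r ^ N) ^ 2 = μ ^ 2 * r ^ (2 * N) := by ring
      rw [h4] at h3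
      show 0 ≤ μ ^ 2 * r ^ (2 * N) - ‖p.eval (r : ℂ)‖ ^ 2
      linarith
  have h5 : μ ^ 2 * ∑ i, (b * (2 * k i)) = μ ^ 2 * (2 * (b * ∑ i, k i)) := by
    rw [Finset.mul_sum, Finset.mul_sum, Finset.mul_sum, Finset.mul_sum]
    refine Finset.sum_congr rfl fun i _ => ?_
    ring
  rw [h5] at hz
  have h6 : μ ^ 2 * (2 * (b * ∑ i, k i)) ≤ μ ^ 2 * (2 * N) := by linarith
  have h7 := le_of_mul_le_mul_left h6 (by positivity)
  linarith

theorem rowBN : RowBN := by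
  intro a b n N F ha hb hH hne
  -- homogeneity and positivity
  set G : (Fin a → EE (n + 1)) → ℝ := fun u => ‖F (fun i => lin (u i) ^ b)‖ with hG
  have hGc : Continuous G := (F_cont F).norm
  set S : Set (Fin a → EE (n + 1)) := Set.univ.pi fun _ => Metric.sphere 0 1 with hS
  have hSc : IsCompact S := isCompact_univ_pi fun _ => isCompact_sphere 0 1
  have hmem : ∀ u, u ∈ S ↔ ∀ i, ‖u i‖ = 1 := by
    intro u
    simp [hS, Set.mem_pi]
  have hSn : S.Nonempty := by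
    refine ⟨fun _ => EuclideanSpace.single 0 1, (hmem _).2 fun i => ?_⟩
    simp
  obtain ⟨x, hxS, hmax⟩ := hSc.exists_isMaxOn hSn hGc.continuousOn
  have hx := (hmem x).1 hxS
  have hle : ∀ u : Fin a → EE (n + 1), (∀ i, ‖u i‖ = 1) → G u ≤ G x := fun u hu =>
    hmax ((hmem u).2 hu)
  -- homogeneous bound
  have hhom : ∀ u : Fin a → EE (n + 1), G u ≤ (∏ i, ‖u i‖ ^ b) * G x := by
    intro u
    by_cases h0 : ∃ i, u i = 0
    · obtain ⟨i, hi⟩ := h0
      have : G u = 0 := by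
        rw [hG]
        simp only
        rw [norm_eq_zero]
        refine F.map_coord_zero i ?_
        rw [hi]
        simp [lin]
        omega
      rw [this]
      positivity
    · push Not at h0
      have hn : ∀ i, ‖u i‖ ≠ 0 := fun i => norm_ne_zero_iff.2 (h0 i)
      have e1 : u = fun i => ((‖u i‖ : ℝ) : ℂ) • ((((‖u i‖ : ℝ) : ℂ))⁻¹ • u i) := by
        funext i
        rw [smul_smul, mul_inv_cancel₀ (by exact_mod_cast hn i), one_smul]
      have e2 : G u = ‖(∏ i, (((‖u i‖ : ℝ) : ℂ)) ^ b) *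
          F (fun i => lin ((((‖u i‖ : ℝ) : ℂ))⁻¹ • u i) ^ b)‖ := by
        rw [← F_smul F (fun i => ((‖u i‖ : ℝ) : ℂ)) (fun i => (((‖u i‖ : ℝ) : ℂ))⁻¹ • u i)]
        exact congrArg G e1
      rw [e2, norm_mul, norm_prod]
      have e3 : ∀ i, ‖(((‖u i‖ : ℝ) : ℂ)) ^ b‖ = ‖u i‖ ^ b := by
        intro i
        rw [norm_pow, Complex.norm_real, norm_norm]
      simp only [e3]
      refine mul_le_mul_of_nonneg_left (hle _ fun i => ?_) (by positivity)
      rw [norm_smul, norm_inv, Complex.norm_real, norm_norm, inv_mul_cancel₀ (hn i)]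
  have hpos : 0 < G x := by
    obtain ⟨u, hu⟩ := hne
    have h1 : 0 < G u := norm_pos_iff.2 hu
    by_contra hcon
    have h2 : G x = 0 := le_antisymm (not_lt.1 hcon) (norm_nonneg _)
    have h3 := hhom u
    rw [h2, mul_zero] at h3
    linarith
  refine ⟨x, hx, hpos, hle, ?_⟩
  -- the case `e 0 ≠ 0`
  have main : ∀ e : EE (n + 1), ‖e‖ = 1 → e 0 ≠ 0 →
      (b : ℝ) * ∑ i, ‖inner ℂ e (x i)‖ ^ 2 ≤ N := by
    intro e he he0
    obtain ⟨p, hpN, hp⟩ := hH x e he he0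
    have hv : ∀ z : ℂ, z ≠ 0 → ‖p.eval z‖ =
        G (fun i => x i + ((z - 1) * inner ℂ e (x i)) • e) := by
      intro z hz
      rw [← hp z hz]
    refine main_cmp b N p (G x) hpos (fun i => ‖inner ℂ e (x i)‖ ^ 2) ?_ ?_ ?_
    · rw [hv 1 one_ne_zero]
      simp
    · refine growth p N hpN (G x) fun z hz => ?_
      have hz0 : z ≠ 0 := by
        intro h0
        simp [h0] at hz
      rw [hv z hz0]
      refine hle _ fun i => ?_
      have h1 := norm_refl e (x i) he (hx i) z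
      rw [hz] at h1
      have h2 : ‖x i + ((z - 1) * inner ℂ e (x i)) • e‖ ^ 2 = 1 := by
        rw [h1]
        ring
      exact (pow_eq_one_iff_of_nonneg (norm_nonneg _) two_ne_zero).1 h2
    · intro r hr
      have hr0 : (r : ℂ) ≠ 0 := by exact_mod_cast hr.ne'
      rw [hv _ hr0]
      have h1 := hhom (fun i => x i + (((r : ℂ) - 1) * inner ℂ e (x i)) • e)
      have h2 : G (fun i => x i + (((r : ℂ) - 1) * inner ℂ e (x i)) • e) ^ 2 ≤
          ((∏ i, ‖x i + (((r : ℂ) - 1) * inner ℂ e (x i)) • e‖ ^ b) * G x) ^ 2 :=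
        pow_le_pow_left₀ (norm_nonneg _) h1 2
      refine h2.trans (le_of_eq ?_)
      rw [mul_pow, mul_comm, ← Finset.prod_pow]
      congr 1
      refine Finset.prod_congr rfl fun i _ => ?_
      rw [← pow_mul, mul_comm b 2, pow_mul, norm_refl e (x i) he (hx i)]
      congr 1
      rw [Complex.norm_real, Real.norm_eq_abs, sq_abs]
  -- homogeneous form and density
  have main2 : ∀ v : EE (n + 1), v 0 ≠ 0 →
      (b : ℝ) * ∑ i, ‖inner ℂ v (x i)‖ ^ 2 ≤ N * ‖v‖ ^ 2 := by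
    intro v hv
    have hv0 : v ≠ 0 := by
      rintro rfl
      exact hv rfl
    have hn : ‖v‖ ≠ 0 := norm_ne_zero_iff.2 hv0
    have h1 := main ((((‖v‖ : ℝ) : ℂ))⁻¹ • v) (by
      rw [norm_smul, norm_inv, Complex.norm_real, norm_norm, inv_mul_cancel₀ hn]) (by
      simp [hn, hv])
    have h2 : ∀ i, ‖inner ℂ ((((‖v‖ : ℝ) : ℂ))⁻¹ • v) (x i)‖ ^ 2 =
        (‖v‖ ^ 2)⁻¹ * ‖inner ℂ v (x i)‖ ^ 2 := by
      intro i
      rw [inner_smul_left, norm_mul, mul_pow, RCLike.norm_conj, norm_inv, Complex.norm_real,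
        norm_norm, inv_pow]
    simp only [h2] at h1
    rw [← Finset.mul_sum] at h1
    have h3 : (0 : ℝ) < ‖v‖ ^ 2 := by positivity
    have h4 : (b : ℝ) * ∑ i, ‖inner ℂ v (x i)‖ ^ 2 =
        (b * ((‖v‖ ^ 2)⁻¹ * ∑ i, ‖inner ℂ v (x i)‖ ^ 2)) * ‖v‖ ^ 2 := by
      field_simp
    rw [h4]
    exact mul_le_mul_of_nonneg_right h1 h3.le
  intro e he
  by_cases he0 : e 0 = 0
  · set s : EE (n + 1) := EuclideanSpace.single 0 1 with hs
    have hφ : Continuous fun t : ℝ => (N : ℝ) * ‖e + (t : ℂ) • s‖ ^ 2 -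
        (b : ℝ) * ∑ i, ‖inner ℂ (e + (t : ℂ) • s) (x i)‖ ^ 2 := by
      fun_prop
    have hcl : IsClosed {t : ℝ | 0 ≤ (N : ℝ) * ‖e + (t : ℂ) • s‖ ^ 2 -
        (b : ℝ) * ∑ i, ‖inner ℂ (e + (t : ℂ) • s) (x i)‖ ^ 2} := isClosed_le continuous_const hφ
    have hd : closure ({(0 : ℝ)}ᶜ) = Set.univ := (dense_compl_singleton (0 : ℝ)).closure_eq
    have hsub : ({(0 : ℝ)}ᶜ : Set ℝ) ⊆ {t : ℝ | 0 ≤ (N : ℝ) * ‖e + (t : ℂ) • s‖ ^ 2 -
        (b : ℝ) * ∑ i, ‖inner ℂ (e + (t : ℂ) • s) (x i)‖ ^ 2} := by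
      intro t ht
      have ht0 : t ≠ 0 := ht
      have := main2 (e + (t : ℂ) • s) (by simp [he0, hs, ht0])
      exact sub_nonneg.2 this
    have h00 : (0 : ℝ) ∈ {t : ℝ | 0 ≤ (N : ℝ) * ‖e + (t : ℂ) • s‖ ^ 2 -
        (b : ℝ) * ∑ i, ‖inner ℂ (e + (t : ℂ) • s) (x i)‖ ^ 2} := by
      have := closure_minimal hsub hcl
      rw [hd] at this
      exact this (Set.mem_univ _)
    have h0 : 0 ≤ (N : ℝ) * ‖e + ((0 : ℝ) : ℂ) • s‖ ^ 2 -
        (b : ℝ) * ∑ i, ‖inner ℂ (e + ((0 : ℝ) : ℂ) • s) (x i)‖ ^ 2 := h00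
    simp only [Complex.ofReal_zero, zero_smul, add_zero, he] at h0
    linarith
  · exact main e he he0

end Vale.Agent.P181.H318

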