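import Mathlib

/-! Numbers for the tail of partitions with at most `a` parts (helper82's `ratio`). -/

namespace Vale.Agent.P181.H318

open Finset

theorem choose_bound (K m n : ℕ) (hn : n ≤ 1441 * K ^ 2 * m) :
    ((n.choose m : ℕ) : ℝ) ≤ (1441 * (K : ℝ) ^ 2) ^ m * Real.exp 1 ^ m := by
  have h1 : ((n.choose m : ℕ) : ℝ) ≤ (n : ℝ) ^ m / (m.factorial : ℝ) := Nat.choose_le_pow_div m n
  have h2 : (n : ℝ) ≤ 1441 * (K : ℝ) ^ 2 * m := by exact_mod_cast hn
  have h3 : (m : ℝ) ^ m / (m.factorial : ℝ) ≤ Real.exp m :=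
    Real.pow_div_factorial_le_exp (m : ℝ) (Nat.cast_nonneg m) m
  have h4 : (0 : ℝ) < m.factorial := by exact_mod_cast m.factorial_pos
  calc ((n.choose m : ℕ) : ℝ) ≤ (n : ℝ) ^ m / (m.factorial : ℝ) := h1
    _ ≤ (1441 * (K : ℝ) ^ 2 * m) ^ m / (m.factorial : ℝ) := by
        apply div_le_div_of_nonneg_right _ h4.le
        exact pow_le_pow_left₀ (Nat.cast_nonneg n) h2 m
    _ = (1441 * (K : ℝ) ^ 2) ^ m * ((m : ℝ) ^ m / (m.factorial : ℝ)) := by
        rw [mul_pow]; ring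
    _ ≤ (1441 * (K : ℝ) ^ 2) ^ m * Real.exp m :=
        mul_le_mul_of_nonneg_left h3 (by positivity)
    _ = (1441 * (K : ℝ) ^ 2) ^ m * Real.exp 1 ^ m := by
        rw [← Real.exp_nat_mul, mul_one]

theorem fact_bound (r m : ℕ) : ((r + m).factorial : ℝ) ≤ r.factorial * ((r + m : ℕ) : ℝ) ^ m := by
  have h1 := Nat.factorial_mul_ascFactorial r m
  have h2 := Nat.ascFactorial_le_pow_add r m
  have h3 : (r + m).factorial ≤ r.factorial * (r + m) ^ m := by
    rw [← h1]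
    exact Nat.mul_le_mul_left _ h2
  exact_mod_cast h3

theorem choose_prod (N k : ℕ) :
    (k.factorial : ℝ) * (((N + k).choose k : ℕ) : ℝ) = ∏ i ∈ range k, ((N : ℝ) + 1 + i) := by
  have h1 := Nat.ascFactorial_eq_factorial_mul_choose N k
  have h2 := Nat.ascFactorial_eq_prod_range (N + 1) k
  rw [h1] at h2
  have : ((k.factorial * (N + k).choose k : ℕ) : ℝ) = ((∏ i ∈ range k, (N + 1 + i) : ℕ) : ℝ) := by
    rw [h2]
  push_cast at this
  exact this

theorem expo {a b K m r : ℝ} (hK : 1 ≤ K) (ha : 1 ≤ a) (hb1 : 1 ≤ b) (hm1 : 1 ≤ m)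
    (hb : 60000 * K ^ 2 * a ≤ b) (hm : a ≤ 40 * K * m) (hr : r ≤ a) : r * (a / b) ≤ m := by
  have hδ0 : 0 ≤ a / b := by positivity
  refine (mul_le_mul_of_nonneg_right hr hδ0).trans ?_
  rw [← mul_div_assoc, div_le_iff₀ (by positivity)]
  have h4 : a * a ≤ 40 * K * m * a := mul_le_mul_of_nonneg_right hm (by positivity)
  have h5 : m * (60000 * K ^ 2 * a) ≤ m * b := mul_le_mul_of_nonneg_left hb (by positivity)
  have h7 : 40 * K ≤ 60000 * K ^ 2 := by nlinarith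
  have h6 : 40 * K * (m * a) ≤ 60000 * K ^ 2 * (m * a) :=
    mul_le_mul_of_nonneg_right h7 (by positivity)
  calc a * a ≤ 40 * K * m * a := h4
    _ = 40 * K * (m * a) := by ring
    _ ≤ 60000 * K ^ 2 * (m * a) := h6
    _ = m * (60000 * K ^ 2 * a) := by ring
    _ ≤ m * b := h5

theorem base {a b K : ℝ} (hK : 1 ≤ K) (ha : 1 ≤ a) (hb : 60000 * K ^ 2 * a ≤ b) :
    1441 * K ^ 2 * Real.exp 1 * 2 * a * a * Real.exp 1 ≤ a * b := by
  have he : Real.exp 1 * Real.exp 1 ≤ 8 := by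
    have h1 := Real.exp_one_lt_d9
    have h2 := Real.exp_pos 1
    nlinarith
  have h1 : 1441 * K ^ 2 * Real.exp 1 * 2 * a * a * Real.exp 1 =
      2882 * (K ^ 2 * a * a) * (Real.exp 1 * Real.exp 1) := by ring
  rw [h1]
  have h2 : 0 ≤ K ^ 2 * a * a := by positivity
  have h3 : a * (60000 * K ^ 2 * a) ≤ a * b := mul_le_mul_of_nonneg_left hb (by positivity)
  have h4 : 2882 * (K ^ 2 * a * a) * (Real.exp 1 * Real.exp 1) ≤
      2882 * (K ^ 2 * a * a) * 8 := mul_le_mul_of_nonneg_left he (by positivity)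
  have h5 : 2882 * (K ^ 2 * a * a) * 8 ≤ a * (60000 * K ^ 2 * a) := by
    have h6 : a * (60000 * K ^ 2 * a) = 60000 * (K ^ 2 * a * a) := by ring
    rw [h6]
    linarith
  exact h4.trans (h5.trans h3)

theorem short (N N' a b : ℝ) (r : ℕ) (hN0 : 0 ≤ N) (hN'0 : 0 ≤ N') (hb : 0 < b) (ha : 0 ≤ a)
    (hN : N = a * b) (hN' : N' ≤ N + a ^ 2) :
    ∏ i ∈ range r, (N' + 1 + i) ≤ (1 + a / b) ^ r * ∏ i ∈ range r, (N + 1 + i) := by
  have hδN : a / b * N = a ^ 2 := by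
    rw [hN]; field_simp
  have hδ0 : 0 ≤ a / b := by positivity
  have h1 : (1 + a / b) ^ r = ∏ _i ∈ range r, (1 + a / b) := by simp
  rw [h1, ← Finset.prod_mul_distrib]
  refine Finset.prod_le_prod (fun i _ => by positivity) fun i _ => ?_
  have h2 : 0 ≤ a / b * (1 + (i : ℝ)) := by positivity
  have h3 : (1 + a / b) * (N + 1 + i) = N + 1 + i + (a / b * N + a / b * (1 + i)) := by ring
  rw [h3, hδN]
  linarith

theorem long (N : ℝ) (hN : 0 ≤ N) (r m : ℕ) :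
    (∏ i ∈ range r, (N + 1 + i)) * N ^ m ≤ ∏ i ∈ range (r + m), (N + 1 + i) := by
  rw [Finset.prod_range_add]
  refine mul_le_mul_of_nonneg_left ?_ (Finset.prod_nonneg fun i _ => by positivity)
  have h1 : N ^ m = ∏ _i ∈ range m, N := by simp
  rw [h1]
  refine Finset.prod_le_prod (fun i _ => hN) fun i _ => ?_
  have : (0 : ℝ) ≤ ((r + i : ℕ) : ℝ) := Nat.cast_nonneg _
  linarith

theorem combine (B CU CL fa fr fr1 frm PU PS PL am nm x y z : ℝ)
    (hr0 : 0 < fr) (hr1 : 0 < fr1) (hrm : 0 < frm) (ha0 : 0 < fa) (hB0 : 0 ≤ B)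
    (hPS : 0 ≤ PS) (hPU : 0 ≤ PU) (ham : 0 ≤ am) (hx : 0 ≤ x) (hy : 0 ≤ y) (hz : 0 ≤ z)
    (hB : B ≤ x * y) (hF1 : fa ≤ fr1 * am) (hF2 : frm ≤ fr * am) (hU : PU ≤ y * PS)
    (hfin : x * y * z * am * am * y ≤ nm) (hL : PS * nm ≤ PL)
    (hcU : fr * CU = PU) (hcL : frm * CL = PL) :
    B * z * fa * CU ≤ fr1 * CL := by
  have s1 : B * z ≤ x * y * z := mul_le_mul_of_nonneg_right hB hz
  have s2 : B * z * fa ≤ x * y * z * (fr1 * am) :=
    mul_le_mul s1 hF1 ha0.le (by positivity)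
  have s3 : B * z * fa * frm ≤ x * y * z * (fr1 * am) * (fr * am) :=
    mul_le_mul s2 hF2 hrm.le (by positivity)
  have s4 : B * z * fa * frm * PU ≤ x * y * z * (fr1 * am) * (fr * am) * (y * PS) :=
    mul_le_mul s3 hU hPU (by positivity)
  have s5 : x * y * z * (fr1 * am) * (fr * am) * (y * PS) =
      (fr1 * fr * PS) * (x * y * z * am * am * y) := by ring
  have s6 : (fr1 * fr * PS) * (x * y * z * am * am * y) ≤ (fr1 * fr * PS) * nm :=
    mul_le_mul_of_nonneg_left hfin (by positivity)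
  have s7 : (fr1 * fr * PS) * nm = fr1 * fr * (PS * nm) := by ring
  have s8 : fr1 * fr * (PS * nm) ≤ fr1 * fr * PL := mul_le_mul_of_nonneg_left hL (by positivity)
  have s9 : (B * z * fa * CU) * (fr * frm) ≤ (fr1 * CL) * (fr * frm) := by
    have h1 : (B * z * fa * CU) * (fr * frm) = B * z * fa * frm * (fr * CU) := by ring
    have h2 : (fr1 * CL) * (fr * frm) = fr1 * fr * (frm * CL) := by ring
    rw [h1, h2, hcU, hcL]
    exact s4.trans (s5.le.trans (s6.trans (s7.le.trans s8)))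
  exact le_of_mul_le_mul_right s9 (by positivity)

theorem numbers0 {r b K m : ℕ} (hK : 1 ≤ K) (hb : 60000 * K ^ 2 * (r + 1 + m) ≤ b)
    (hm : r + 1 + m ≤ 40 * K * m) (hm1 : 1 ≤ m) (N N' : ℕ) (hN : N = (r + 1 + m) * b)
    (hN' : N' ≤ N + (r + 1 + m) ^ 2) :
    (36 * K * (r + 1 + m) + m).choose m * 2 ^ m * (r + 1 + m).factorial *
        (N' + r).choose r ≤ (r + 1).factorial * (N + (r + m)).choose (r + m) := by
  obtain ⟨a, ha⟩ : ∃ a, a = r + 1 + m := ⟨_, rfl⟩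
  rw [← ha] at hb hm hN hN' ⊢
  have ha1 : 1 ≤ a := by omega
  have hb1 : 1 ≤ b := by
    have : 1 ≤ 60000 * K ^ 2 * a := Nat.mul_pos (by positivity) (by omega)
    omega
  have hKr : (1 : ℝ) ≤ K := by exact_mod_cast hK
  have har : (1 : ℝ) ≤ a := by exact_mod_cast ha1
  have hbr : (1 : ℝ) ≤ b := by exact_mod_cast hb1
  have hmr : (1 : ℝ) ≤ m := by exact_mod_cast hm1
  have hbR : 60000 * (K : ℝ) ^ 2 * a ≤ b := by exact_mod_cast hb
  have hmR : (a : ℝ) ≤ 40 * K * m := by exact_mod_cast hm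
  have hNR : (N : ℝ) = a * b := by rw [hN]; push_cast; ring
  have hN'R : (N' : ℝ) ≤ N + (a : ℝ) ^ 2 := by exact_mod_cast hN'
  have hB : (((36 * K * a + m).choose m : ℕ) : ℝ) ≤
      (1441 * (K : ℝ) ^ 2) ^ m * Real.exp 1 ^ m := by
    refine choose_bound K m _ ?_
    have h1 : 36 * K * a ≤ 36 * K * (40 * K * m) := Nat.mul_le_mul_left _ hm
    have h2 : m ≤ K ^ 2 * m := Nat.le_mul_of_pos_left _ (by positivity)
    have h3 : 36 * K * (40 * K * m) = 1440 * (K ^ 2 * m) := by ring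
    have h4 : 1441 * K ^ 2 * m = 1440 * (K ^ 2 * m) + K ^ 2 * m := by ring
    omega
  have hF1 : (a.factorial : ℝ) ≤ (r + 1).factorial * (a : ℝ) ^ m := by
    rw [ha]; exact fact_bound (r + 1) m
  have hF2 : ((r + m).factorial : ℝ) ≤ r.factorial * (a : ℝ) ^ m := by
    refine (fact_bound r m).trans (mul_le_mul_of_nonneg_left ?_ (by positivity))
    refine pow_le_pow_left₀ (Nat.cast_nonneg _) ?_ m
    exact_mod_cast (by omega : r + m ≤ a)
  have hexp : (1 + (a : ℝ) / b) ^ r ≤ Real.exp 1 ^ m := by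
    have h1 : (1 + (a : ℝ) / b) ^ r ≤ Real.exp ((a : ℝ) / b) ^ r :=
      pow_le_pow_left₀ (by positivity) (by linarith [Real.add_one_le_exp ((a : ℝ) / b)]) r
    refine h1.trans ?_
    rw [← Real.exp_nat_mul, ← Real.exp_nat_mul, mul_one]
    refine Real.exp_le_exp.2 ?_
    exact expo hKr har hbr hmr hbR hmR (by exact_mod_cast (by omega : r ≤ a))
  have hPS0 : (0 : ℝ) ≤ ∏ i ∈ range r, ((N : ℝ) + 1 + i) :=
    Finset.prod_nonneg fun i _ => by positivity
  have hPU0 : (0 : ℝ) ≤ ∏ i ∈ range r, ((N' : ℝ) + 1 + i) :=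
    Finset.prod_nonneg fun i _ => by positivity
  have hU := (short (N : ℝ) N' a b r (Nat.cast_nonneg _) (Nat.cast_nonneg _) (by linarith)
    (by linarith) hNR hN'R).trans (mul_le_mul_of_nonneg_right hexp hPS0)
  have hfin : (1441 * (K : ℝ) ^ 2) ^ m * Real.exp 1 ^ m * 2 ^ m * ((a : ℝ) ^ m) * ((a : ℝ) ^ m) *
      Real.exp 1 ^ m ≤ (N : ℝ) ^ m := by
    rw [← mul_pow, ← mul_pow, ← mul_pow, ← mul_pow, ← mul_pow]
    refine pow_le_pow_left₀ (by positivity) ?_ m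
    rw [hNR]
    exact base hKr har hbR
  have key := combine ((((36 * K * a + m).choose m : ℕ)) : ℝ) (((N' + r).choose r : ℕ) : ℝ)
    (((N + (r + m)).choose (r + m) : ℕ) : ℝ) (a.factorial) (r.factorial) ((r + 1).factorial)
    ((r + m).factorial) _ _ _ ((a : ℝ) ^ m) ((N : ℝ) ^ m) ((1441 * (K : ℝ) ^ 2) ^ m)
    (Real.exp 1 ^ m) (2 ^ m) (by exact_mod_cast r.factorial_pos)
    (by exact_mod_cast (r + 1).factorial_pos) (by exact_mod_cast (r + m).factorial_pos)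
    (by exact_mod_cast a.factorial_pos) (Nat.cast_nonneg _) hPS0 hPU0 (by positivity)
    (by positivity) (by positivity) (by positivity) hB hF1 hF2 hU hfin
    (long (N : ℝ) (Nat.cast_nonneg _) r m) (choose_prod N' r) (choose_prod N (r + m))
  exact_mod_cast key

theorem numbers {a b K m : ℕ} (hK : 1 ≤ K) (hb : 60000 * K ^ 2 * a ≤ b) (hm : a ≤ 40 * K * m)
    (hma : m < a) :
    (36 * K * a + m).choose m * 2 ^ m * a.factorial *
        (a * b + (a - m) * (a - m - 1) / 2 + (a - m - 1)).choose (a - m - 1) ≤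
      (a - m).factorial * (a * b + (a - 1)).choose (a - 1) := by
  obtain ⟨r, rfl⟩ : ∃ r, a = r + 1 + m := ⟨a - m - 1, by omega⟩
  have e1 : r + 1 + m - m = r + 1 := by omega
  have e3 : r + 1 + m - 1 = r + m := by omega
  rw [e1, Nat.add_sub_cancel, e3]
  have hm1 : 1 ≤ m := by
    rcases Nat.eq_zero_or_pos m with h | h
    · subst h; omega
    · exact h
  refine numbers0 hK hb hm hm1 _ _ rfl ?_
  have h2 : (r + 1) * r / 2 ≤ (r + 1) * r := Nat.div_le_self _ _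
  have h3 : (r + 1) * r ≤ (r + 1 + m) * (r + 1 + m) := Nat.mul_le_mul (by omega) (by omega)
  rw [pow_two]
  omega

end Vale.Agent.P181.H318
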